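import Vale.Agent.Lib.P045.Sound
import Vale.Agent.Lib.P045.T42.All

/-!
Ryser's inequality for `r = 4` and matching number at most `2`: a 4-partite 4-uniform hypergraph
without three pairwise disjoint edges has a vertex cover of size at most `6`.

The proof is a certificate checked by the kernel. It is a list of 117 families of edges in which
the last one is a single edge; each family is shown impossible in a counterexample: for each edge
which avoids a chosen set of at most 6 vertices of the family, either the edge makes a matching of
size 3 with the family, or the family with this edge contains a copy of an earlier family.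
-/

namespace Vale.Agent.Results.P045.FourPartiteNuTwo

/-- Every finite 4-partite 4-uniform hypergraph with matching number at most `2` has a vertex cover
with at most `6` vertices. Here `part` assigns each vertex its part, `H` is the set of edges, each
edge has exactly one vertex in each part, and any set of pairwise disjoint edges has at most two
members. -/
theorem result {W : Type*} (part : W → Fin 4) (H : Finset (Finset W))
    (hpart : ∀ e ∈ H, ∀ i, ∃! v, v ∈ e ∧ part v = i)
    (hν : ∀ M ⊆ H, (∀ a ∈ M, ∀ b ∈ M, a ≠ b → Disjoint a b) → M.card ≤ 2) :
    ∃ C : Finset W, C.card ≤ 6 ∧ ∀ e ∈ H, ∃ v ∈ C, v ∈ e :=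
  Vale.Agent.Lib.P045.cover_of_upTo (by norm_num) Vale.Agent.Lib.P045.T42.upAll (m := 116)
    (by norm_num) Vale.Agent.Lib.P045.T42.root part H hpart hν

end Vale.Agent.Results.P045.FourPartiteNuTwo
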