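import Vale.Agent.Results.P045.ALinearBoth
import Vale.Agent.Results.P045.FourPartiteNuTwo

/-!
# P045: Ryser's inequality in three cases

(1) matching number at most `2`, any 4-partite 4-uniform hypergraph; (2) matching number at most `3`,
linear 4-partite 4-uniform hypergraphs; (3) matching number at most `2`, linear 5-partite 5-uniform
hypergraphs.
-/

universe u

/-- `τ ≤ (r - 1) ν` for `r`-partite `r`-uniform hypergraphs: for `r = 4`, `ν ≤ 2`; for `r = 4`,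
`ν ≤ 3` and `H` linear; for `r = 5`, `ν ≤ 2` and `H` linear. -/
theorem Vale.Agent.Results.P045.A0All.result :
    (∀ {W : Type u} (part : W → Fin 4) (H : Finset (Finset W)),
      (∀ e ∈ H, ∀ i, ∃! v, v ∈ e ∧ part v = i) →
      (∀ M ⊆ H, (∀ a ∈ M, ∀ b ∈ M, a ≠ b → Disjoint a b) → M.card ≤ 2) →
      ∃ C : Finset W, C.card ≤ 6 ∧ ∀ e ∈ H, ∃ v ∈ C, v ∈ e) ∧
    (∀ {W : Type u} (part : W → Fin 4) (H : Finset (Finset W)),
      (∀ e ∈ H, ∀ i, ∃! v, v ∈ e ∧ part v = i) →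
      (∀ e ∈ H, ∀ f ∈ H, e ≠ f → ∀ u v : W, u ∈ e → u ∈ f → v ∈ e → v ∈ f → u = v) →
      (∀ M ⊆ H, (∀ a ∈ M, ∀ b ∈ M, a ≠ b → Disjoint a b) → M.card ≤ 3) →
      ∃ C : Finset W, C.card ≤ 9 ∧ ∀ e ∈ H, ∃ v ∈ C, v ∈ e) ∧
    (∀ {W : Type u} (part : W → Fin 5) (H : Finset (Finset W)),
      (∀ e ∈ H, ∀ i, ∃! v, v ∈ e ∧ part v = i) →
      (∀ e ∈ H, ∀ f ∈ H, e ≠ f → ∀ u v : W, u ∈ e → u ∈ f → v ∈ e → v ∈ f → u = v) →
      (∀ M ⊆ H, (∀ a ∈ M, ∀ b ∈ M, a ≠ b → Disjoint a b) → M.card ≤ 2) →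
      ∃ C : Finset W, C.card ≤ 8 ∧ ∀ e ∈ H, ∃ v ∈ C, v ∈ e) :=
  ⟨fun part H hp hn => Vale.Agent.Results.P045.FourPartiteNuTwo.result part H hp hn,
    fun part H hp hl hn => Vale.Agent.Results.P045.ALinearBoth.result.1 part H hp hl hn,
    fun part H hp hl hn => Vale.Agent.Results.P045.ALinearBoth.result.2 part H hp hl hn⟩
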