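import Vale.Agent.Results.P045.ALinearFourThree
import Vale.Agent.Results.P045.FourPartiteNuTwo

/-!
# P045: Ryser's inequality for `r = 4` in two cases

(1) matching number at most `2`, any 4-partite 4-uniform hypergraph; (2) matching number at most `3`,
linear 4-partite 4-uniform hypergraphs.
-/

universe u

/-- `τ ≤ 3 ν` for 4-partite 4-uniform hypergraphs: when `ν ≤ 2`, and when `ν ≤ 3` and `H` is linear. -/
theorem Vale.Agent.Results.P045.A0Conj.result :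
    (∀ {W : Type u} (part : W → Fin 4) (H : Finset (Finset W)),
      (∀ e ∈ H, ∀ i, ∃! v, v ∈ e ∧ part v = i) →
      (∀ M ⊆ H, (∀ a ∈ M, ∀ b ∈ M, a ≠ b → Disjoint a b) → M.card ≤ 2) →
      ∃ C : Finset W, C.card ≤ 6 ∧ ∀ e ∈ H, ∃ v ∈ C, v ∈ e) ∧
    (∀ {W : Type u} (part : W → Fin 4) (H : Finset (Finset W)),
      (∀ e ∈ H, ∀ i, ∃! v, v ∈ e ∧ part v = i) →
      (∀ e ∈ H, ∀ f ∈ H, e ≠ f → ∀ u v : W, u ∈ e → u ∈ f → v ∈ e → v ∈ f → u = v) →
      (∀ M ⊆ H, (∀ a ∈ M, ∀ b ∈ M, a ≠ b → Disjoint a b) → M.card ≤ 3) →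
      ∃ C : Finset W, C.card ≤ 9 ∧ ∀ e ∈ H, ∃ v ∈ C, v ∈ e) :=
  ⟨fun part H hp hn => Vale.Agent.Results.P045.FourPartiteNuTwo.result part H hp hn,
    fun part H hp hl hn => Vale.Agent.Results.P045.ALinearFourThree.result part H hp hl hn⟩
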