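import Vale.Agent.Lib.P045.SoundL
import Vale.Agent.Lib.P045.L43.All
import Vale.Agent.Lib.P045.L52.All

/-!
Ryser's inequality for linear hypergraphs: a linear 4-partite 4-uniform hypergraph with matching
number at most `3` has a vertex cover of size at most `9`, and a linear 5-partite 5-uniform
hypergraph with matching number at most `2` has a vertex cover of size at most `8`.

The proof is a certificate checked by the kernel: a list of families of edges, each of which is
shown impossible in a counterexample. For each edge which avoids a chosen set of vertices of the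
family, either the edge makes a large matching with the family, or the family with this edge contains
a copy of an earlier family, or the edge has two common vertices with an edge of the family.
-/

namespace Vale.Agent.Results.P045.ALinearBoth

open Vale.Agent.Lib.P045

universe u

/-- Ryser's inequality `τ ≤ (r - 1) ν` for linear `r`-partite `r`-uniform hypergraphs, in the cases
`r = 4`, `ν ≤ 3` and `r = 5`, `ν ≤ 2`. Here `part` assigns each vertex its part, `H` is the set of
edges, each edge has exactly one vertex in each part, two distinct edges have at most one common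
vertex, and any set of pairwise disjoint edges has at most `ν` members. -/
theorem result {W : Type u} :
    (∀ (part : W → Fin 4) (H : Finset (Finset W)),
      (∀ e ∈ H, ∀ i, ∃! v, v ∈ e ∧ part v = i) →
      (∀ e ∈ H, ∀ f ∈ H, e ≠ f → ∀ u v : W, u ∈ e → u ∈ f → v ∈ e → v ∈ f → u = v) →
      (∀ M ⊆ H, (∀ a ∈ M, ∀ b ∈ M, a ≠ b → Disjoint a b) → M.card ≤ 3) →
      ∃ C : Finset W, C.card ≤ 9 ∧ ∀ e ∈ H, ∃ v ∈ C, v ∈ e) ∧
    (∀ (part : W → Fin 5) (H : Finset (Finset W)),
      (∀ e ∈ H, ∀ i, ∃! v, v ∈ e ∧ part v = i) →
      (∀ e ∈ H, ∀ f ∈ H, e ≠ f → ∀ u v : W, u ∈ e → u ∈ f → v ∈ e → v ∈ f → u = v) →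
      (∀ M ⊆ H, (∀ a ∈ M, ∀ b ∈ M, a ≠ b → Disjoint a b) → M.card ≤ 2) →
      ∃ C : Finset W, C.card ≤ 8 ∧ ∀ e ∈ H, ∃ v ∈ C, v ∈ e) := by
  constructor
  · intro part H hpart hlin hν
    exact cover_of_upToL (by norm_num) Vale.Agent.Lib.P045.L43.hbase Vale.Agent.Lib.P045.L43.upAll
      (m := 167) (by norm_num) Vale.Agent.Lib.P045.L43.root part H hpart hlin hν
  · intro part H hpart hlin hν
    exact cover_of_upToL (by norm_num) Vale.Agent.Lib.P045.L52.hbase Vale.Agent.Lib.P045.L52.upAll
      (m := 192) (by norm_num) Vale.Agent.Lib.P045.L52.root part H hpart hlin hν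

end Vale.Agent.Results.P045.ALinearBoth
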