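import Vale.Agent.Lib.P045.SoundL
import Vale.Agent.Lib.P045.L43.All

/-!
Ryser's inequality for linear hypergraphs: a linear 4-partite 4-uniform hypergraph with matching
number at most `3` has a vertex cover of size at most `9`.

The proof is a certificate checked by the kernel: a list of families of edges, each of which is
shown impossible in a counterexample. For each edge which avoids a chosen set of vertices of the
family, either the edge makes a large matching with the family, or the family with this edge contains
a copy of an earlier family, or the edge has two common vertices with an edge of the family.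
-/

namespace Vale.Agent.Results.P045.ALinearFourThree

open Vale.Agent.Lib.P045

universe u

/-- Ryser's inequality `τ ≤ (r - 1) ν` for linear `r`-partite `r`-uniform hypergraphs in the case
`r = 4`, `ν ≤ 3`. Here `part` assigns each vertex its part, `H` is the set of edges, each edge has
exactly one vertex in each part, two distinct edges have at most one common vertex, and any set of
pairwise disjoint edges has at most three members. -/
theorem result {W : Type u} (part : W → Fin 4) (H : Finset (Finset W))
    (hpart : ∀ e ∈ H, ∀ i, ∃! v, v ∈ e ∧ part v = i)
    (hlin : ∀ e ∈ H, ∀ f ∈ H, e ≠ f → ∀ u v : W, u ∈ e → u ∈ f → v ∈ e → v ∈ f → u = v)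
    (hν : ∀ M ⊆ H, (∀ a ∈ M, ∀ b ∈ M, a ≠ b → Disjoint a b) → M.card ≤ 3) :
    ∃ C : Finset W, C.card ≤ 9 ∧ ∀ e ∈ H, ∃ v ∈ C, v ∈ e :=
  cover_of_upToL (by norm_num) Vale.Agent.Lib.P045.L43.hbase Vale.Agent.Lib.P045.L43.upAll
    (m := 167) (by norm_num) Vale.Agent.Lib.P045.L43.root part H hpart hlin hν

end Vale.Agent.Results.P045.ALinearFourThree
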